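import Mathlib

open MeasureTheory

namespace Vale.Agent.Lib.P245

theorem exp_le_add_exp_sq (x : ℝ) : Real.exp x ≤ x + Real.exp (x ^ 2) := by
  have h2 : 1 + x ^ 2 ≤ Real.exp (x ^ 2) := by
    have := Real.add_one_le_exp (x ^ 2)
    linarith
  by_cases h : |x| ≤ 1
  · have h1 := Real.abs_exp_sub_one_sub_id_le h
    have h3 := (abs_le.1 h1).2
    linarith
  · rw [not_le] at h
    rcases lt_abs.1 h with h' | h'
    · have : x ≤ x ^ 2 := by nlinarith
      have h4 : Real.exp x ≤ Real.exp (x ^ 2) := Real.exp_le_exp.2 this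
      linarith
    · have h4 : Real.exp x ≤ 1 := by
        rw [← Real.exp_zero]
        exact Real.exp_le_exp.2 (by linarith)
      nlinarith

theorem exp_mul_le (p w : ℝ) (hp0 : 0 ≤ p) (hp1 : p ≤ 1) :
    Real.exp (p * w) ≤ 1 - p + p * Real.exp w := by
  have h := convexOn_exp.2 (Set.mem_univ (0 : ℝ)) (Set.mem_univ w) (by linarith : 0 ≤ 1 - p) hp0
    (by ring)
  simp only [smul_eq_mul, mul_zero, zero_add, Real.exp_zero, mul_one] at h
  exact h

variable {Ω : Type*} [MeasurableSpace Ω] {μ : Measure Ω}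

theorem integrable_exp_mul {Z : Ω → ℝ} (hZ : Measurable Z) {a : ℝ} (ha : 0 < a)
    (hint : Integrable (fun ω => Real.exp (Z ω ^ 2 / a ^ 2)) μ) (s : ℝ) :
    Integrable (fun ω => Real.exp (s * Z ω)) μ := by
  refine Integrable.mono' (hint.const_mul (Real.exp (s ^ 2 * a ^ 2 / 4))) ?_ ?_
  · exact (Real.measurable_exp.comp (hZ.const_mul s)).aestronglyMeasurable
  · refine Filter.Eventually.of_forall (fun ω => ?_)
    rw [Real.norm_eq_abs, abs_of_pos (Real.exp_pos _), ← Real.exp_add]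
    apply Real.exp_le_exp.2
    have h1 : Z ω ^ 2 / a ^ 2 = (Z ω / a) ^ 2 := by rw [div_pow]
    have h2 : s * Z ω = (s * a) * (Z ω / a) := by field_simp
    rw [h1, h2]
    nlinarith [sq_nonneg (s * a / 2 - Z ω / a)]

theorem integrable_self {Z : Ω → ℝ} (hZ : Measurable Z)
    (hint : ∀ s : ℝ, Integrable (fun ω => Real.exp (s * Z ω)) μ) :
    Integrable Z μ := by
  refine Integrable.mono' ((hint 1).add (hint (-1))) hZ.aestronglyMeasurable ?_
  refine Filter.Eventually.of_forall (fun ω => ?_)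
  rw [Real.norm_eq_abs]
  simp only [Pi.add_apply]
  have h1 := Real.add_one_le_exp (1 * Z ω)
  have h2 := Real.add_one_le_exp (-1 * Z ω)
  have h3 := Real.exp_pos (1 * Z ω)
  have h4 := Real.exp_pos (-1 * Z ω)
  rw [abs_le]
  constructor <;> linarith

theorem mgf_le [IsProbabilityMeasure μ] {Z : Ω → ℝ} (hZ : Measurable Z) {a : ℝ} (ha : 0 < a)
    (hint : Integrable (fun ω => Real.exp (Z ω ^ 2 / a ^ 2)) μ)
    (h2 : ∫ ω, Real.exp (Z ω ^ 2 / a ^ 2) ∂μ ≤ 2) (h0 : ∫ ω, Z ω ∂μ = 0) (s : ℝ) :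
    ∫ ω, Real.exp (s * Z ω) ∂μ ≤ Real.exp (s ^ 2 * a ^ 2) := by
  have hZi : Integrable Z μ := integrable_self hZ (integrable_exp_mul hZ ha hint)
  have hp0 : 0 ≤ s ^ 2 * a ^ 2 := by positivity
  by_cases hp : s ^ 2 * a ^ 2 ≤ 1
  · have hb : ∀ ω, Real.exp (s * Z ω) ≤
        s * Z ω + ((1 - s ^ 2 * a ^ 2) + s ^ 2 * a ^ 2 * Real.exp (Z ω ^ 2 / a ^ 2)) := by
      intro ω
      have h1 := exp_le_add_exp_sq (s * Z ω)
      have h3 := exp_mul_le (s ^ 2 * a ^ 2) (Z ω ^ 2 / a ^ 2) hp0 hp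
      have h4 : s ^ 2 * a ^ 2 * (Z ω ^ 2 / a ^ 2) = (s * Z ω) ^ 2 := by
        field_simp
      rw [h4] at h3
      linarith
    have hI : Integrable (fun ω => s * Z ω +
        ((1 - s ^ 2 * a ^ 2) + s ^ 2 * a ^ 2 * Real.exp (Z ω ^ 2 / a ^ 2))) μ :=
      (hZi.const_mul s).add ((integrable_const _).add (hint.const_mul _))
    calc ∫ ω, Real.exp (s * Z ω) ∂μ
        ≤ ∫ ω, (s * Z ω +
          ((1 - s ^ 2 * a ^ 2) + s ^ 2 * a ^ 2 * Real.exp (Z ω ^ 2 / a ^ 2))) ∂μ :=
          integral_mono (integrable_exp_mul hZ ha hint s) hI hb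
      _ = s * ∫ ω, Z ω ∂μ + ((1 - s ^ 2 * a ^ 2)
            + s ^ 2 * a ^ 2 * ∫ ω, Real.exp (Z ω ^ 2 / a ^ 2) ∂μ) := by
          have i1 : Integrable (fun ω => s * Z ω) μ := hZi.const_mul s
          have i2 : Integrable (fun _ : Ω => (1 - s ^ 2 * a ^ 2)) μ := integrable_const _
          have i3 : Integrable (fun ω => s ^ 2 * a ^ 2 * Real.exp (Z ω ^ 2 / a ^ 2)) μ :=
            hint.const_mul _
          have i4 : Integrable (fun ω => (1 - s ^ 2 * a ^ 2)
              + s ^ 2 * a ^ 2 * Real.exp (Z ω ^ 2 / a ^ 2)) μ := i2.add i3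
          rw [integral_add i1 i4, integral_add i2 i3, integral_const_mul,
            integral_const_mul, integral_const]
          simp
      _ ≤ 1 + s ^ 2 * a ^ 2 := by
          rw [h0]
          nlinarith
      _ ≤ Real.exp (s ^ 2 * a ^ 2) := by
          have := Real.add_one_le_exp (s ^ 2 * a ^ 2)
          linarith
  · rw [not_le] at hp
    have hb : ∀ ω, Real.exp (s * Z ω) ≤ Real.exp (s ^ 2 * a ^ 2 / 2) *
        ((1 - 1 / 2) + 1 / 2 * Real.exp (Z ω ^ 2 / a ^ 2)) := by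
      intro ω
      have h3 := exp_mul_le (1 / 2) (Z ω ^ 2 / a ^ 2) (by norm_num) (by norm_num)
      have h5 : Real.exp (s * Z ω) ≤
          Real.exp (s ^ 2 * a ^ 2 / 2) * Real.exp (1 / 2 * (Z ω ^ 2 / a ^ 2)) := by
        rw [← Real.exp_add]
        apply Real.exp_le_exp.2
        have h1 : Z ω ^ 2 / a ^ 2 = (Z ω / a) ^ 2 := by rw [div_pow]
        have h2 : s * Z ω = (s * a) * (Z ω / a) := by field_simp
        rw [h1, h2]
        nlinarith [sq_nonneg (s * a - Z ω / a)]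
      exact h5.trans (mul_le_mul_of_nonneg_left h3 (Real.exp_pos _).le)
    have hI : Integrable (fun ω => Real.exp (s ^ 2 * a ^ 2 / 2) *
        ((1 - 1 / 2) + 1 / 2 * Real.exp (Z ω ^ 2 / a ^ 2))) μ :=
      ((integrable_const _).add (hint.const_mul _)).const_mul _
    calc ∫ ω, Real.exp (s * Z ω) ∂μ
        ≤ ∫ ω, Real.exp (s ^ 2 * a ^ 2 / 2) *
          ((1 - 1 / 2) + 1 / 2 * Real.exp (Z ω ^ 2 / a ^ 2)) ∂μ :=
          integral_mono (integrable_exp_mul hZ ha hint s) hI hb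
      _ = Real.exp (s ^ 2 * a ^ 2 / 2) * ((1 - 1 / 2)
            + 1 / 2 * ∫ ω, Real.exp (Z ω ^ 2 / a ^ 2) ∂μ) := by
          have i2 : Integrable (fun _ : Ω => ((1 : ℝ) - 1 / 2)) μ := integrable_const _
          have i3 : Integrable (fun ω => 1 / 2 * Real.exp (Z ω ^ 2 / a ^ 2)) μ :=
            hint.const_mul _
          rw [integral_const_mul, integral_add i2 i3, integral_const_mul, integral_const]
          simp
      _ ≤ Real.exp (s ^ 2 * a ^ 2 / 2) * Real.exp (1 / 2) := by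
          apply mul_le_mul_of_nonneg_left _ (Real.exp_pos _).le
          have := Real.add_one_le_exp (1 / 2 : ℝ)
          linarith
      _ ≤ Real.exp (s ^ 2 * a ^ 2) := by
          rw [← Real.exp_add]
          apply Real.exp_le_exp.2
          linarith

theorem ent_le [IsProbabilityMeasure μ] {Y : Ω → ℝ} (hY : Measurable Y)
    (hint : ∀ s : ℝ, Integrable (fun ω => Real.exp (s * Y ω)) μ)
    (h0 : ∫ ω, Y ω ∂μ = 0) {K : ℝ} (hK : ∫ ω, Real.exp (2 * Y ω) ∂μ ≤ Real.exp K) :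
    Integrable (fun ω => Real.exp (Y ω) * Y ω) μ ∧
    ∫ ω, Real.exp (Y ω) * Y ω ∂μ
      - (∫ ω, Real.exp (Y ω) ∂μ) * Real.log (∫ ω, Real.exp (Y ω) ∂μ)
      ≤ K * ∫ ω, Real.exp (Y ω) ∂μ := by
  have hE1 : Integrable (fun ω => Real.exp (Y ω)) μ := by simpa using hint 1
  have hE2 : Integrable (fun ω => Real.exp (2 * Y ω)) μ := hint 2
  have hYi : Integrable Y μ := integrable_self hY hint
  have hYE : Integrable (fun ω => Real.exp (Y ω) * Y ω) μ := by
    have ib : Integrable (fun ω => Real.exp (2 * Y ω) + 1) μ := hE2.add (integrable_const _)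
    refine Integrable.mono' ib ?_ ?_
    · exact ((Real.measurable_exp.comp hY).mul hY).aestronglyMeasurable
    · refine Filter.Eventually.of_forall (fun ω => ?_)
      rw [Real.norm_eq_abs, abs_mul, abs_of_pos (Real.exp_pos _)]
      have h1 := Real.add_one_le_exp (Y ω)
      have h2 := Real.add_one_le_exp (-Y ω)
      have h3 := Real.exp_pos (Y ω)
      have h4 := Real.exp_pos (-Y ω)
      have h5 : |Y ω| ≤ Real.exp (Y ω) + Real.exp (-Y ω) := by
        rw [abs_le]
        constructor <;> linarith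
      have h6 : Real.exp (Y ω) * Real.exp (Y ω) = Real.exp (2 * Y ω) := by
        rw [← Real.exp_add, two_mul]
      have h7 : Real.exp (Y ω) * Real.exp (-Y ω) = 1 := by
        rw [← Real.exp_add, add_neg_cancel, Real.exp_zero]
      calc Real.exp (Y ω) * |Y ω| ≤ Real.exp (Y ω) * (Real.exp (Y ω) + Real.exp (-Y ω)) :=
            mul_le_mul_of_nonneg_left h5 h3.le
        _ = Real.exp (2 * Y ω) + 1 := by rw [mul_add, h6, h7]
  refine ⟨hYE, ?_⟩
  set M := ∫ ω, Real.exp (Y ω) ∂μ with hM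
  set M2 := ∫ ω, Real.exp (2 * Y ω) ∂μ with hM2
  have hM1 : 1 ≤ M := by
    have i1 : Integrable (fun ω => Y ω + 1) μ := hYi.add (integrable_const _)
    have h := integral_mono i1 hE1 (fun ω => Real.add_one_le_exp (Y ω))
    rw [integral_add hYi (integrable_const _), h0, integral_const] at h
    simpa using h
  have hM21 : 1 ≤ M2 := by
    have i0 : Integrable (fun ω => 2 * Y ω) μ := hYi.const_mul 2
    have i1 : Integrable (fun ω => 2 * Y ω + 1) μ := i0.add (integrable_const _)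
    have h := integral_mono i1 hE2 (fun ω => Real.add_one_le_exp (2 * Y ω))
    rw [integral_add i0 (integrable_const _), integral_const_mul, h0, integral_const] at h
    simpa using h
  have hMpos : 0 < M := by linarith
  have hM2pos : 0 < M2 := by linarith
  set m := Real.log M2 - Real.log M with hm
  have hexpm : Real.exp (-m) = M / M2 := by
    rw [hm, neg_sub, Real.exp_sub, Real.exp_log hMpos, Real.exp_log hM2pos]
  have hpt : ∀ ω, Real.exp (Y ω) * Y ω + (1 - m) * Real.exp (Y ω)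
      ≤ Real.exp (-m) * Real.exp (2 * Y ω) := by
    intro ω
    have h1 := Real.add_one_le_exp (Y ω - m)
    have h3 := Real.exp_pos (Y ω)
    have h4 : Real.exp (-m) * Real.exp (2 * Y ω) = Real.exp (Y ω) * Real.exp (Y ω - m) := by
      rw [← Real.exp_add, ← Real.exp_add]
      apply congrArg
      ring
    rw [h4]
    nlinarith
  have i5 : Integrable (fun ω => (1 - m) * Real.exp (Y ω)) μ := hE1.const_mul _
  have i6 : Integrable (fun ω => Real.exp (Y ω) * Y ω + (1 - m) * Real.exp (Y ω)) μ := hYE.add i5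
  have i7 : Integrable (fun ω => Real.exp (-m) * Real.exp (2 * Y ω)) μ := hE2.const_mul _
  have hmain := integral_mono i6 i7 hpt
  rw [integral_add hYE i5, integral_const_mul, integral_const_mul, ← hM, ← hM2, hexpm,
    div_mul_cancel₀ _ (ne_of_gt hM2pos)] at hmain
  have hlogM : 0 ≤ Real.log M := Real.log_nonneg hM1
  have hlogM2 : Real.log M2 ≤ K := by
    have := Real.log_le_log hM2pos hK
    rwa [Real.log_exp] at this
  have h8 : ∫ ω, Real.exp (Y ω) * Y ω ∂μ ≤ m * M := by linarith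
  have h9 : m * M - M * Real.log M ≤ K * M := by
    rw [hm]
    nlinarith
  linarith

theorem lin_mgf {n : ℕ} (μ : Measure (EuclideanSpace ℝ (Fin n))) [IsProbabilityMeasure μ]
    (a : ℝ) (ha : 0 < a)
    (hcent : ∀ θ : EuclideanSpace ℝ (Fin n), ∫ x, inner ℝ x θ ∂μ = 0)
    (hsub : ∀ θ : EuclideanSpace ℝ (Fin n), ‖θ‖ = 1 →
      Integrable (fun x => Real.exp ((inner ℝ x θ) ^ 2 / a ^ 2)) μ ∧
      ∫ x, Real.exp ((inner ℝ x θ) ^ 2 / a ^ 2) ∂μ ≤ 2)
    (lam : EuclideanSpace ℝ (Fin n)) (s : ℝ) :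
    Integrable (fun x => Real.exp (s * inner ℝ x lam)) μ ∧
    ∫ x, Real.exp (s * inner ℝ x lam) ∂μ ≤ Real.exp (s ^ 2 * ‖lam‖ ^ 2 * a ^ 2) := by
  by_cases hl : lam = 0
  · subst hl
    simp
  · have hn : ‖lam‖ ≠ 0 := norm_ne_zero_iff.2 hl
    set θ : EuclideanSpace ℝ (Fin n) := (‖lam‖)⁻¹ • lam with hθ
    have hθ1 : ‖θ‖ = 1 := by
      rw [hθ, norm_smul, norm_inv, norm_norm, inv_mul_cancel₀ hn]
    have hZ : Measurable (fun x : EuclideanSpace ℝ (Fin n) => inner ℝ x θ) :=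
      (continuous_id.inner continuous_const).measurable
    have hrel : ∀ x : EuclideanSpace ℝ (Fin n),
        s * inner ℝ x lam = (s * ‖lam‖) * inner ℝ x θ := by
      intro x
      rw [hθ, inner_smul_right]
      field_simp
    obtain ⟨h1, h2⟩ := hsub θ hθ1
    have e : (fun x : EuclideanSpace ℝ (Fin n) => Real.exp (s * inner ℝ x lam))
        = fun x => Real.exp ((s * ‖lam‖) * inner ℝ x θ) := by
      funext x
      rw [hrel x]
    rw [e]
    refine ⟨integrable_exp_mul hZ ha h1 _, ?_⟩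
    have h3 := mgf_le hZ ha h1 h2 (hcent θ) (s * ‖lam‖)
    have h4 : (s * ‖lam‖) ^ 2 * a ^ 2 = s ^ 2 * ‖lam‖ ^ 2 * a ^ 2 := by ring
    rwa [h4] at h3

theorem grad_formula {n : ℕ} (lam x : EuclideanSpace ℝ (Fin n)) :
    gradient (fun y : EuclideanSpace ℝ (Fin n) => Real.exp (inner ℝ y lam / 2)) x
      = (Real.exp (inner ℝ x lam / 2) / 2) • lam := by
  apply HasGradientAt.gradient
  rw [hasGradientAt_iff_hasFDerivAt]
  have h1 : HasFDerivAt (fun y : EuclideanSpace ℝ (Fin n) => inner ℝ y lam)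
      (InnerProductSpace.toDual ℝ (EuclideanSpace ℝ (Fin n)) lam) x := by
    have h := (InnerProductSpace.toDual ℝ (EuclideanSpace ℝ (Fin n)) lam).hasFDerivAt (x := x)
    have e : (fun y : EuclideanSpace ℝ (Fin n) => inner ℝ y lam)
        = fun y => (InnerProductSpace.toDual ℝ (EuclideanSpace ℝ (Fin n)) lam) y := by
      funext y
      rw [InnerProductSpace.toDual_apply_apply, real_inner_comm]
    rw [e]
    exact h
  have h1' : HasFDerivAt (fun y : EuclideanSpace ℝ (Fin n) => inner ℝ y lam / 2)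
      ((2 : ℝ)⁻¹ • (InnerProductSpace.toDual ℝ (EuclideanSpace ℝ (Fin n)) lam)) x := by
    have h := h1.const_mul (2 : ℝ)⁻¹
    have e : (fun y : EuclideanSpace ℝ (Fin n) => inner ℝ y lam / 2)
        = fun y => (2 : ℝ)⁻¹ * inner ℝ y lam := by
      funext y
      ring
    rw [e]
    exact h
  have h2 := h1'.exp
  have e2 : (InnerProductSpace.toDual ℝ (EuclideanSpace ℝ (Fin n)))
      ((Real.exp (inner ℝ x lam / 2) / 2) • lam)
      = Real.exp (inner ℝ x lam / 2) •
        ((2 : ℝ)⁻¹ • (InnerProductSpace.toDual ℝ (EuclideanSpace ℝ (Fin n)) lam)) := by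
    ext w
    simp
    ring
  rw [e2]
  exact h2

theorem logLinear_main (n : ℕ) (μ : Measure (EuclideanSpace ℝ (Fin n))) [IsProbabilityMeasure μ]
    (a : ℝ) (ha : 0 < a)
    (hcent : ∀ θ : EuclideanSpace ℝ (Fin n), ∫ x, inner ℝ x θ ∂μ = 0)
    (hsub : ∀ θ : EuclideanSpace ℝ (Fin n), ‖θ‖ = 1 →
      Integrable (fun x => Real.exp ((inner ℝ x θ) ^ 2 / a ^ 2)) μ ∧
      ∫ x, Real.exp ((inner ℝ x θ) ^ 2 / a ^ 2) ∂μ ≤ 2)
    (lam : EuclideanSpace ℝ (Fin n)) :
    Integrable (fun x => Real.exp (inner ℝ x lam / 2) ^ 2) μ ∧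
    Integrable (fun x => Real.exp (inner ℝ x lam / 2) ^ 2
      * Real.log (Real.exp (inner ℝ x lam / 2) ^ 2)) μ ∧
    Integrable (fun x => ‖gradient (fun y : EuclideanSpace ℝ (Fin n) =>
      Real.exp (inner ℝ y lam / 2)) x‖ ^ 2) μ ∧
    ∫ x, Real.exp (inner ℝ x lam / 2) ^ 2
        * Real.log (Real.exp (inner ℝ x lam / 2) ^ 2) ∂μ
      - (∫ x, Real.exp (inner ℝ x lam / 2) ^ 2 ∂μ)
        * Real.log (∫ x, Real.exp (inner ℝ x lam / 2) ^ 2 ∂μ)
      ≤ 16 * a ^ 2 * ∫ x, ‖gradient (fun y : EuclideanSpace ℝ (Fin n) =>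
          Real.exp (inner ℝ y lam / 2)) x‖ ^ 2 ∂μ := by
  have hsq : ∀ y : ℝ, Real.exp (y / 2) ^ 2 = Real.exp y := by
    intro y
    rw [← Real.exp_nat_mul]
    apply congrArg
    push_cast
    ring
  have hY : Measurable (fun x : EuclideanSpace ℝ (Fin n) => inner ℝ x lam) :=
    (continuous_id.inner continuous_const).measurable
  have hint : ∀ s : ℝ, Integrable (fun x => Real.exp (s * inner ℝ x lam)) μ :=
    fun s => (lin_mgf μ a ha hcent hsub lam s).1
  have hK := (lin_mgf μ a ha hcent hsub lam 2).2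
  obtain ⟨hI, hE⟩ := ent_le hY hint (hcent lam) hK
  have hE1 : Integrable (fun x => Real.exp (inner ℝ x lam)) μ := by simpa using hint 1
  have e1 : (fun x : EuclideanSpace ℝ (Fin n) => Real.exp (inner ℝ x lam / 2) ^ 2)
      = fun x => Real.exp (inner ℝ x lam) := by
    funext x
    exact hsq _
  have e2 : (fun x : EuclideanSpace ℝ (Fin n) => Real.exp (inner ℝ x lam / 2) ^ 2
      * Real.log (Real.exp (inner ℝ x lam / 2) ^ 2))
      = fun x => Real.exp (inner ℝ x lam) * inner ℝ x lam := by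
    funext x
    rw [hsq, Real.log_exp]
  have e3 : (fun x : EuclideanSpace ℝ (Fin n) => ‖gradient (fun y : EuclideanSpace ℝ (Fin n) =>
      Real.exp (inner ℝ y lam / 2)) x‖ ^ 2)
      = fun x => (‖lam‖ ^ 2 / 4) * Real.exp (inner ℝ x lam) := by
    funext x
    rw [grad_formula, norm_smul, mul_pow, Real.norm_eq_abs, sq_abs, div_pow, hsq]
    ring
  rw [e1, e2, e3, integral_const_mul]
  refine ⟨hE1, hI, hE1.const_mul _, ?_⟩
  refine hE.trans (le_of_eq ?_)
  ring

end Vale.Agent.Lib.P245
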