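import Mathlib

open MeasureTheory ProbabilityTheory

namespace Vale.Agent.Lib.P245

variable {Ω : Type*} [MeasurableSpace Ω] {μ : Measure Ω}

theorem herbst_pos [IsProbabilityMeasure μ] {Z : Ω → ℝ}
    (hint : ∀ s : ℝ, Integrable (fun ω => Real.exp (s * Z ω)) μ)
    (h0 : ∫ ω, Z ω ∂μ = 0) {c : ℝ}
    (hLS : ∀ s : ℝ, ∫ ω, Real.exp (s * Z ω) * (s * Z ω) ∂μ
        - (∫ ω, Real.exp (s * Z ω) ∂μ) * Real.log (∫ ω, Real.exp (s * Z ω) ∂μ)
        ≤ c * s ^ 2 * ∫ ω, Real.exp (s * Z ω) ∂μ) {s : ℝ} (hs : 0 < s) :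
    ∫ ω, Real.exp (s * Z ω) ∂μ ≤ Real.exp (c * s ^ 2) := by
  have hset : ∀ t : ℝ, t ∈ interior (integrableExpSet Z μ) := by
    intro t
    have : integrableExpSet Z μ = Set.univ := by
      ext u
      simp only [Set.mem_univ, iff_true]
      exact hint u
    rw [this, interior_univ]
    exact Set.mem_univ t
  have hH' : ∀ t, HasDerivAt (mgf Z μ) (∫ ω, Z ω * Real.exp (t * Z ω) ∂μ) t :=
    fun t => hasDerivAt_mgf (hset t)
  have hpos : ∀ t, 0 < mgf Z μ t := fun t => mgf_pos (hint t)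
  have hL' : ∀ t, HasDerivAt (fun u => Real.log (mgf Z μ u))
      ((∫ ω, Z ω * Real.exp (t * Z ω) ∂μ) / mgf Z μ t) t :=
    fun t => (hH' t).log (hpos t).ne'
  have hΦ' : ∀ t, HasDerivAt (fun u => Real.log (mgf Z μ u) - c * u ^ 2)
      ((∫ ω, Z ω * Real.exp (t * Z ω) ∂μ) / mgf Z μ t - c * (2 * t)) t := by
    intro t
    have h2 : HasDerivAt (fun u : ℝ => c * u ^ 2) (c * (2 * t)) t := by
      have := (hasDerivAt_pow 2 t).const_mul c
      simpa using this
    exact (hL' t).sub h2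
  have hkey : ∀ t, t * ((∫ ω, Z ω * Real.exp (t * Z ω) ∂μ) / mgf Z μ t)
      - Real.log (mgf Z μ t) ≤ c * t ^ 2 := by
    intro t
    have h1 := hLS t
    have e1 : ∫ ω, Real.exp (t * Z ω) * (t * Z ω) ∂μ
        = t * ∫ ω, Z ω * Real.exp (t * Z ω) ∂μ := by
      rw [← integral_const_mul]
      apply integral_congr_ae
      exact Filter.Eventually.of_forall (fun ω => by ring)
    have e2 : ∫ ω, Real.exp (t * Z ω) ∂μ = mgf Z μ t := rfl
    rw [e1, e2] at h1
    have hp := hpos t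
    have : t * ((∫ ω, Z ω * Real.exp (t * Z ω) ∂μ) / mgf Z μ t) - Real.log (mgf Z μ t)
        = (t * (∫ ω, Z ω * Real.exp (t * Z ω) ∂μ) - mgf Z μ t * Real.log (mgf Z μ t))
          / mgf Z μ t := by
      field_simp
    rw [this, div_le_iff₀ hp]
    exact h1
  set Φ : ℝ → ℝ := fun u => Real.log (mgf Z μ u) - c * u ^ 2 with hΦ
  have hG' : ∀ t, 0 < t → HasDerivAt (fun u => Φ u / u)
      ((((∫ ω, Z ω * Real.exp (t * Z ω) ∂μ) / mgf Z μ t - c * (2 * t)) * t - Φ t * 1) / t ^ 2) t :=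
    fun t ht => (hΦ' t).div (hasDerivAt_id t) ht.ne'
  have hanti : AntitoneOn (fun u => Φ u / u) (Set.Ioi 0) := by
    apply antitoneOn_of_deriv_nonpos (convex_Ioi 0)
    · intro t ht
      exact (hG' t ht).continuousAt.continuousWithinAt
    · intro t ht
      rw [interior_Ioi] at ht
      exact (hG' t ht).differentiableAt.differentiableWithinAt
    · intro t ht
      rw [interior_Ioi] at ht
      rw [(hG' t ht).deriv]
      apply div_nonpos_of_nonpos_of_nonneg _ (sq_nonneg t)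
      have := hkey t
      simp only [hΦ]
      nlinarith
  have hΦs : Φ s ≤ 0 := by
    by_contra hcon
    rw [not_le] at hcon
    have hδ : 0 < Φ s / s := div_pos hcon hs
    have hm0 : mgf Z μ 0 = 1 := by simp [mgf]
    have hΦ0 : Φ 0 = 0 := by simp [hΦ, hm0]
    have hd0 : HasDerivAt Φ 0 0 := by
      have := hΦ' 0
      simpa [h0] using this
    have hlo := (hasDerivAt_iff_isLittleO_nhds_zero.1 hd0).def (half_pos hδ)
    have hev : ∀ᶠ h in nhdsWithin (0 : ℝ) (Set.Ioi 0),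
        ‖Φ (0 + h) - Φ 0 - h • (0 : ℝ)‖ ≤ Φ s / s / 2 * ‖h‖ :=
      hlo.filter_mono nhdsWithin_le_nhds
    obtain ⟨h, hh1, hh2⟩ := (hev.and (Ioo_mem_nhdsGT hs)).exists
    have hh0 : 0 < h := hh2.1
    have hle := hanti (Set.mem_Ioi.2 hh0) (Set.mem_Ioi.2 hs) hh2.2.le
    simp only at hle
    rw [zero_add, hΦ0, sub_zero, smul_zero, sub_zero, Real.norm_eq_abs, Real.norm_eq_abs,
      abs_of_pos hh0] at hh1
    have h3 : Φ h ≤ Φ s / s / 2 * h := (le_abs_self _).trans hh1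
    have h4 : Φ s / s * h ≤ Φ h := by
      rw [le_div_iff₀ hh0] at hle
      exact hle
    nlinarith
  have : Real.log (mgf Z μ s) ≤ c * s ^ 2 := by
    simp only [hΦ] at hΦs
    linarith
  exact (Real.log_le_iff_le_exp (hpos s)).1 this

theorem herbst [IsProbabilityMeasure μ] {Z : Ω → ℝ}
    (hint : ∀ s : ℝ, Integrable (fun ω => Real.exp (s * Z ω)) μ)
    (h0 : ∫ ω, Z ω ∂μ = 0) {c : ℝ}
    (hLS : ∀ s : ℝ, ∫ ω, Real.exp (s * Z ω) * (s * Z ω) ∂μ
        - (∫ ω, Real.exp (s * Z ω) ∂μ) * Real.log (∫ ω, Real.exp (s * Z ω) ∂μ)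
        ≤ c * s ^ 2 * ∫ ω, Real.exp (s * Z ω) ∂μ) (s : ℝ) :
    ∫ ω, Real.exp (s * Z ω) ∂μ ≤ Real.exp (c * s ^ 2) := by
  rcases lt_trichotomy s 0 with hs | hs | hs
  · have e : ∀ (u : ℝ) (ω : Ω), u * (-Z ω) = (-u) * Z ω := fun u ω => by ring
    have h := herbst_pos (μ := μ) (Z := fun ω => -Z ω) (c := c)
      (by
        intro u
        simp only [e]
        exact hint (-u))
      (by rw [integral_neg, h0, neg_zero])
      (by
        intro u
        simp only [e]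
        have := hLS (-u)
        rwa [neg_sq] at this)
      (s := -s) (by linarith)
    simp only [e, neg_neg, neg_sq] at h
    exact h
  · subst hs
    simp
  · exact herbst_pos hint h0 hLS hs

theorem gauss_pdf_id (g : ℝ) :
    gaussianPDFReal 0 1 g * Real.exp (3 / 8 * g ^ 2) = 2 * gaussianPDFReal 0 4 g := by
  unfold gaussianPDFReal
  have h4 : Real.sqrt (2 * Real.pi * ((4 : NNReal) : ℝ)) = 2 * Real.sqrt (2 * Real.pi) := by
    have : (2 * Real.pi * ((4 : NNReal) : ℝ)) = 2 ^ 2 * (2 * Real.pi) := by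
      push_cast
      ring
    rw [this, Real.sqrt_mul (by positivity), Real.sqrt_sq (by norm_num)]
  have h1 : Real.sqrt (2 * Real.pi * ((1 : NNReal) : ℝ)) = Real.sqrt (2 * Real.pi) := by
    simp
  have hpos : 0 < Real.sqrt (2 * Real.pi) := Real.sqrt_pos.2 (by positivity)
  rw [h4, h1, mul_assoc, ← Real.exp_add]
  have e : -(g - 0) ^ 2 / (2 * ((1 : NNReal) : ℝ)) + 3 / 8 * g ^ 2
      = -(g - 0) ^ 2 / (2 * ((4 : NNReal) : ℝ)) := by
    push_cast
    ring
  rw [e]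
  field_simp

theorem gauss_exp_sq :
    ∫⁻ g, ENNReal.ofReal (Real.exp (3 / 8 * g ^ 2)) ∂(gaussianReal 0 1) = 2 := by
  rw [gaussianReal_of_var_ne_zero 0 one_ne_zero,
    lintegral_withDensity_eq_lintegral_mul _ (measurable_gaussianPDF 0 1) (by fun_prop)]
  have h : ∀ g : ℝ, (gaussianPDF 0 1 * fun g => ENNReal.ofReal (Real.exp (3 / 8 * g ^ 2))) g
      = 2 * ENNReal.ofReal (gaussianPDFReal 0 4 g) := by
    intro g
    rw [Pi.mul_apply, gaussianPDF, ← ENNReal.ofReal_mul (gaussianPDFReal_nonneg 0 1 g),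
      gauss_pdf_id, ENNReal.ofReal_mul (by norm_num)]
    simp
  rw [lintegral_congr h, lintegral_const_mul _ (by fun_prop),
    lintegral_gaussianPDFReal_eq_one 0 (by norm_num), mul_one]

theorem psi2_of_mgf [IsProbabilityMeasure μ] {Z : Ω → ℝ} (hZ : Measurable Z) {c : ℝ} (hc : 0 < c)
    (hint : ∀ s : ℝ, Integrable (fun ω => Real.exp (s * Z ω)) μ)
    (hm : ∀ s : ℝ, ∫ ω, Real.exp (s * Z ω) ∂μ ≤ Real.exp (c * s ^ 2)) :
    Integrable (fun ω => Real.exp (3 / (16 * c) * Z ω ^ 2)) μ ∧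
    ∫ ω, Real.exp (3 / (16 * c) * Z ω ^ 2) ∂μ ≤ 2 := by
  set t : ℝ := Real.sqrt (3 / (8 * c)) with ht
  have ht2 : t ^ 2 = 3 / (8 * c) := Real.sq_sqrt (by positivity)
  have hA : ∀ ω, ENNReal.ofReal (Real.exp (3 / (16 * c) * Z ω ^ 2))
      = ∫⁻ g, ENNReal.ofReal (Real.exp ((t * Z ω) * g)) ∂(gaussianReal 0 1) := by
    intro ω
    rw [← ofReal_integral_eq_lintegral_ofReal (integrable_exp_mul_gaussianReal (t * Z ω))
      (Filter.Eventually.of_forall (fun g => (Real.exp_pos _).le))]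
    have h1 : ∫ g, Real.exp ((t * Z ω) * g) ∂(gaussianReal 0 1)
        = mgf id (gaussianReal 0 1) (t * Z ω) := rfl
    rw [h1, mgf_id_gaussianReal]
    apply congrArg
    apply congrArg
    have : (t * Z ω) ^ 2 = 3 / (8 * c) * Z ω ^ 2 := by rw [mul_pow, ht2]
    simp only [NNReal.coe_one, zero_mul, zero_add, one_mul]
    rw [this]
    field_simp
    ring
  have hC : ∀ g : ℝ, ∫⁻ ω, ENNReal.ofReal (Real.exp ((t * Z ω) * g)) ∂μ
      ≤ ENNReal.ofReal (Real.exp (3 / 8 * g ^ 2)) := by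
    intro g
    have e : (fun ω => ENNReal.ofReal (Real.exp ((t * Z ω) * g)))
        = fun ω => ENNReal.ofReal (Real.exp ((t * g) * Z ω)) := by
      funext ω
      apply congrArg
      apply congrArg
      ring
    rw [e, ← ofReal_integral_eq_lintegral_ofReal (hint (t * g))
      (Filter.Eventually.of_forall (fun ω => (Real.exp_pos _).le))]
    apply ENNReal.ofReal_le_ofReal
    refine (hm (t * g)).trans (le_of_eq ?_)
    apply congrArg
    rw [mul_pow, ht2]
    field_simp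
  have hmeas : Measurable (fun ω => Real.exp (3 / (16 * c) * Z ω ^ 2)) := by fun_prop
  have hD : ∫⁻ ω, ENNReal.ofReal (Real.exp (3 / (16 * c) * Z ω ^ 2)) ∂μ ≤ 2 := by
    rw [lintegral_congr hA, lintegral_lintegral_swap]
    · calc ∫⁻ g, ∫⁻ ω, ENNReal.ofReal (Real.exp ((t * Z ω) * g)) ∂μ ∂(gaussianReal 0 1)
          ≤ ∫⁻ g, ENNReal.ofReal (Real.exp (3 / 8 * g ^ 2)) ∂(gaussianReal 0 1) :=
            lintegral_mono hC
        _ = 2 := gauss_exp_sq
    · apply Measurable.aemeasurable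
      have : Measurable (fun p : Ω × ℝ => ENNReal.ofReal (Real.exp ((t * Z p.1) * p.2))) := by
        fun_prop
      exact this
  have hnn : 0 ≤ᵐ[μ] fun ω => Real.exp (3 / (16 * c) * Z ω ^ 2) :=
    Filter.Eventually.of_forall (fun ω => (Real.exp_pos _).le)
  refine ⟨⟨hmeas.aestronglyMeasurable, ?_⟩, ?_⟩
  · rw [hasFiniteIntegral_iff_ofReal hnn]
    exact lt_of_le_of_lt hD (by simp)
  · rw [integral_eq_lintegral_of_nonneg_ae hnn hmeas.aestronglyMeasurable]
    have := ENNReal.toReal_mono (by simp) hD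
    simpa using this

end Vale.Agent.Lib.P245
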